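import Vale.Agent.P181.R2.H182.PtMul
import Vale.Agent.P181.R2.H959.FMul
import Mathlib.Data.Nat.Choose.Multinomial
import Mathlib.Analysis.SpecialFunctions.Pow.Real

set_option autoImplicit false

open scoped TensorProduct

/-! Foulkes' inequality for all partitions with at most `m` rows, `b ≥ C a^(3/2+ε)`:
definitions and literal statements of the rows (helper48). -/

namespace Vale.Agent.P181.FR

open Vale.Agent.P181 Vale.Agent.P181.H280 Vale.Agent.P181.H54 MvPolynomial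

/-- A function of `B` points, homogeneous of degree `d` in each, which is a highest weight vector
of weight `lam` (no symmetry). -/
def HP (B m d : ℕ) (lam : Fin m → ℕ) (G : (Fin B → Fin m → ℂ) → ℂ) : Prop :=
  G ∈ MP B m d ∧ ∀ g : Matrix (Fin m) (Fin m) ℂ, IsBorel g → ∀ p,
    G (fun j => Matrix.vecMul (p j) g) = (∏ i, g i i ^ lam i) * G p

/-- `G` is given by a nonzero real polynomial. -/
def RP (B m : ℕ) (G : (Fin B → Fin m → ℂ) → ℂ) : Prop :=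
  ∃ Q : MvPolynomial (Fin B × Fin m) ℝ, Q ≠ 0 ∧
    ∀ p, G p = MvPolynomial.aeval (fun x : Fin B × Fin m => p x.1 x.2) Q

/-- The bracket of an `r`-subset of the points. -/
noncomputable def brk {B m r : ℕ} (hrm : r ≤ m) (T : Finset (Fin B)) (hT : T.card = r)
    (p : Fin B → Fin m → ℂ) : ℂ :=
  Matrix.det (Matrix.of fun j k : Fin r => p (T.orderEmbOfFin hT j) (Fin.castLE hrm k))

/-- Value of a vector of `Sym^B(Sym^a)` at a functional. -/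
noncomputable def dv {B a m : ℕ} (x : Pleth B a m)
    (φ : Module.Dual ℂ (Sym[ℂ]^a (Fin m → ℂ))) : ℂ :=
  symEval (fun _ : Fin B => φ) (x : Sym[ℂ]^B (Sym[ℂ]^a (Fin m → ℂ)))

/-- A1 -/
def RowA1 : Prop := ∀ {B m d : ℕ} {lam : Fin m → ℕ} (G : (Fin B → Fin m → ℂ) → ℂ),
  HP B m d lam G → (∃ p : Fin B → Fin m → ℂ, ∑ σ : Equiv.Perm (Fin B), G (fun j => p (σ j)) ≠ 0) →
  Pos B d m lam

/-- A2 -/
def RowA2 : Prop := ∀ {B m d : ℕ} (lam : Fin m → ℕ), Antitone lam → ∑ i, lam i = d * B →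
  (∀ k : Fin m, B ≤ (k : ℕ) → lam k = 0) → ∃ G, HP B m d lam G ∧ RP B m G

/-- A3: squares -/
def RowA3 : Prop := ∀ {B m d : ℕ} (lam : Fin m → ℕ), Antitone lam → ∑ i, lam i = d * B →
  (∀ k : Fin m, B ≤ (k : ℕ) → lam k = 0) → Pos B (2 * d) m (2 • lam)

/-- A4: brackets -/
def RowA4 : Prop := ∀ {B m r d : ℕ} (hrm : r ≤ m) (e : Finset (Fin B) → ℕ),
  (∀ i : Fin B, ∑ T ∈ (Finset.powersetCard r Finset.univ).filter (fun T => i ∈ T), e T = d) →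
  HP B m d ((∑ T ∈ Finset.powersetCard r (Finset.univ : Finset (Fin B)), e T) • om m r)
    (fun p => ∏ T : {T : Finset (Fin B) // T.card = r}, brk hrm T.1 T.2 p ^ e T.1)

/-- A5: generic real points separate the permutations. -/
def RowA5 : Prop := ∀ {n m r k : ℕ} (hrm : r ≤ m), 2 ≤ r → 2 * r + 1 ≤ n → 0 < k →
  ∀ G : (Fin n → Fin m → ℂ) → ℂ, RP n m G → ∃ p : Fin n → Fin m → ℂ,
    G p ≠ 0 ∧ (∀ T : {T : Finset (Fin n) // T.card = r}, brk hrm T.1 T.2 p ≠ 0) ∧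
    ∀ σ : Equiv.Perm (Fin n), σ ≠ 1 → ∃ (e : Finset (Fin n) → ℕ) (d : ℕ),
      (∀ i : Fin n, ∑ T ∈ (Finset.powersetCard r Finset.univ).filter (fun T => i ∈ T), e T = d) ∧
      (∏ T : {T : Finset (Fin n) // T.card = r}, brk hrm T.1 T.2 (fun j => p (σ j)) ^ e T.1) ^ k ≠
        (∏ T : {T : Finset (Fin n) // T.card = r}, brk hrm T.1 T.2 p ^ e T.1) ^ k

/-- A6: near-rectangular weights in every degree (Dedekind's independence of characters). -/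
def RowA6 : Prop := ∀ {n m r d : ℕ} (t : ℕ), 0 < t → 2 ≤ r → r ≤ m → 2 * r + 1 ≤ n →
  ∀ lam : Fin m → ℕ, Antitone lam → ∑ i, lam i = d * n →
  (∀ k : Fin m, n ≤ (k : ℕ) → lam k = 0) →
  ∃ D : ℕ, Pos n (2 * r * t * D + d) m (lam + (2 * t * D * n) • om m r)

/-- B1: products of `B` elements. -/
def RowB1 : Prop := ∀ {n c m N B : ℕ} {mu : Fin m → ℕ} (h : Fin N → Pleth n c m),
  (∀ j, h j ∈ hwSpace mu (plethAct n c m)) →
  ∀ (φ : Module.Dual ℂ (Sym[ℂ]^c (Fin m → ℂ))) (ψ : Fin N → Module.Dual ℂ (Sym[ℂ]^c (Fin m → ℂ)))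
    (A : Matrix (Fin N) (Fin N) ℂ), A.det ≠ 0 →
  (∀ (x : Fin N → ℂ) (j : Fin N), ∃ q : Polynomial ℂ, q.coeff 0 = 0 ∧
    q.coeff 1 = ∑ k, A j k * x k ∧ ∀ s : ℂ, q.eval s = dv (h j) (φ + s • ∑ k, x k • ψ k)) →
  N.multichoose B ≤ plethMult (n * B) c m (B • mu)

/-- B2: the first order term. -/
def RowB2 : Prop := ∀ {n c m N : ℕ} (h : Pleth n c m), 0 < n →
  (∀ p : Fin n → Fin m → ℂ, ∀ i j, i ≠ j → p i = p j → ptv h p = 0) →
  ∀ (q : Fin n → Fin m → ℂ) (P : Fin N → Fin m → ℂ) (x : Fin N → ℂ),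
  ∃ Q : Polynomial ℂ, Q.coeff 0 = 0 ∧
    Q.coeff 1 = ∑ k, ((n.factorial : ℂ) * ptv h (fun i => if (i : ℕ) = 0 then P k else q i)) * x k ∧
    ∀ s : ℂ, Q.eval s =
      dv h ((∑ j ∈ Finset.univ.filter (fun j : Fin n => (j : ℕ) ≠ 0), evalPow c (dotF (q j))) +
        s • ∑ k, x k • evalPow c (dotF (P k)))

/-- B3: many functions of `3 r` points with independent first order terms. -/
def RowB3 : Prop := ∀ (m r : ℕ), 3 ≤ r → r ≤ m → ∃ K c0 : ℕ, 0 < K ∧ ∀ c : ℕ, c0 ≤ c →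
  ∀ N : ℕ, K * N ≤ c ^ 2 → ∃ (h : Fin N → Pleth (3 * r) c m) (q : Fin (3 * r) → Fin m → ℂ)
    (P : Fin N → Fin m → ℂ),
    (∀ j, h j ∈ hwSpace ((3 * c) • om m r) (plethAct (3 * r) c m)) ∧
    (∀ j, ∀ p : Fin (3 * r) → Fin m → ℂ, ∀ i i', i ≠ i' → p i = p i' → ptv (h j) p = 0) ∧
    (Matrix.of fun j k : Fin N => ptv (h j) (fun i => if (i : ℕ) = 0 then P k else q i)).det ≠ 0

/-- B4: richness. -/
def RowB4 : Prop := ∀ (m r : ℕ), 3 ≤ r → r ≤ m → ∃ K c0 : ℕ, 0 < K ∧ ∀ c : ℕ, c0 ≤ c →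
  ∀ N B : ℕ, K * N ≤ c ^ 2 → N.multichoose B ≤ plethMult (3 * r * B) c m ((3 * c * B) • om m r)

/-- C1: assembly. `r0` carries the richness, `r1` the padding. `G r` are the gaps. -/
def RowC1 : Prop := ∀ (m : ℕ), 3 ≤ m → ∃ K c0 : ℕ, 0 < K ∧ ∀ (a b c B : ℕ) (lam : Fin m → ℕ) (r0 : ℕ),
  c0 ≤ c → K * c ≤ a → a % (2 * m.factorial) = c % (2 * m.factorial) → K ≤ b → K * B ≤ b →
  Antitone lam → ∑ i, lam i = a * b → 3 ≤ r0 → r0 ≤ m →
  (∀ i : Fin m, (i : ℕ) + 1 = r0 →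
    K * c * (B + 1) + (if h : (i : ℕ) + 1 < m then lam ⟨i + 1, h⟩ else 0) ≤ lam i) →
  plethMult (3 * r0 * B) c m ((3 * c * B) • om m r0) ≤ plethMult b a m lam

/-- D: the theorem. -/
def Goal : Prop := ∀ (n : ℕ) {ε : ℝ}, 0 < ε → ∃ C : ℝ, 0 < C ∧ ∀ (a b : ℕ) (lam : Fin (n + 3) → ℕ),
  C * (a : ℝ) ^ (3 / 2 + ε) ≤ b → Antitone lam → ∑ i, lam i = a * b →
  plethMult a b (n + 3) lam ≤ plethMult b a (n + 3) lam

end Vale.Agent.P181.FR
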